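import Mathlib
import Vale.Agent.P267.H757.NF5
import Vale.Agent.P290.H270.Pencil

/-!
# P290, GEO-PENCIL (helper342): divisor theory in terms of norm functions

`DivTh E M` collects the outputs of DIV (irreducible decomposition), INT (intersection numbers) and
K3-COH for one compact complex surface `M`, in the language of norm functions (helper757):
an effective divisor is a norm function `N` up to a smooth positive factor.

`DivTh.toCurves` is the instance of helper270's `Curves`.
-/

open Set Filter Topology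
open scoped Manifold ContDiff

namespace Vale.Agent.P290.H342

open Vale.Agent.P267.H757

universe u

section

variable (E : Type*) [NormedAddCommGroup E] [NormedSpace ℂ E]
variable (M : Type u) [TopologicalSpace M] [ChartedSpace E M]

/-- `N` has order at least two at `p`: a local equation is critical at `p`. -/
def Sing {M : Type u} [TopologicalSpace M] [ChartedSpace E M] (N : M → ℝ) (p : M) : Prop :=
  ∃ (U : Set M) (g : M → ℂ) (φ : M → ℝ), p ∈ U ∧ LocRep E N U g φ ∧ g p = 0 ∧
    mfderiv 𝓘(ℂ, E) 𝓘(ℂ) g p = 0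

/-- Divisor theory on a compact complex surface. -/
structure DivTh where
  /-- the lattice -/
  H : Type u
  [grp : AddCommGroup H]
  B : H →+ H →+ ℤ
  symm : ∀ x y, B x y = B y x
  /-- the class of a norm function -/
  cl : (M → ℝ) → H
  cl_mul : ∀ N N', IsNormFn E N → IsNormFn E N' → cl (fun x => N x * N' x) = cl N + cl N'
  cl_exp : ∀ φ : M → ℝ, ContMDiff 𝓘(ℝ, E) 𝓘(ℝ) ∞ φ → cl (fun x => Real.exp (φ x)) = 0
  /-- irreducible curves -/
  κ : Type u
  N : κ → M → ℝ
  nf : ∀ C, IsNormFn E (N C)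
  zero : ∀ C, ∃ x, N C x = 0
  finite : ∀ C C', C ≠ C' → ({x | N C x = 0} ∩ {x | N C' x = 0}).Finite
  infinite : ∀ C, {x | N C x = 0}.Infinite
  factor : ∀ N', IsNormFn E N' → ∃ (D : κ →₀ ℕ) (ψ : M → ℝ), ContMDiff 𝓘(ℝ, E) 𝓘(ℝ) ∞ ψ ∧
    ∀ x, N' x = Real.exp (ψ x) * D.prod fun C m => N C x ^ m
  /-- intersection numbers -/
  int_nonneg : ∀ N N', IsNormFn E N → IsNormFn E N' → ({x | N x = 0} ∩ {x | N' x = 0}).Finite →
    0 ≤ B (cl N) (cl N')
  int_zero : ∀ N N', IsNormFn E N → IsNormFn E N' → (∀ x, N x = 0 → N' x ≠ 0) →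
    B (cl N) (cl N') = 0
  int_one : ∀ N N', IsNormFn E N → IsNormFn E N' → ({x | N x = 0} ∩ {x | N' x = 0}).Finite →
    ∀ p, N p = 0 → N' p = 0 → 1 ≤ B (cl N) (cl N')
  int_two : ∀ N N', IsNormFn E N → IsNormFn E N' → ({x | N x = 0} ∩ {x | N' x = 0}).Finite →
    ∀ p, Sing E N p → N' p = 0 → 2 ≤ B (cl N) (cl N')
  int_four : ∀ N N', IsNormFn E N → IsNormFn E N' → ({x | N x = 0} ∩ {x | N' x = 0}).Finite →
    ∀ p, Sing E N p → Sing E N' p → 4 ≤ B (cl N) (cl N')

end

namespace DivTh

attribute [instance] DivTh.grp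

variable {E : Type*} [NormedAddCommGroup E] [NormedSpace ℂ E]
variable {M : Type u} [TopologicalSpace M] [ChartedSpace E M] (T : DivTh E M)

/-- the norm function of an effective divisor -/
noncomputable def Nd (D : T.κ →₀ ℕ) (x : M) : ℝ := D.prod fun C m => T.N C x ^ m

@[simp] theorem Nd_zero : T.Nd 0 = fun _ => 1 := by
  funext x; simp [Nd]

theorem Nd_add (D D' : T.κ →₀ ℕ) (x : M) : T.Nd (D + D') x = T.Nd D x * T.Nd D' x := by
  classical
  rw [Nd, Nd, Nd, Finsupp.prod_add_index']
  · intro C; exact pow_zero _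
  · intro C a b; exact pow_add _ _ _

theorem Nd_single (C : T.κ) (m : ℕ) (x : M) : T.Nd (Finsupp.single C m) x = T.N C x ^ m := by
  exact Finsupp.prod_single_index (h := fun C m => T.N C x ^ m) (pow_zero _)

theorem nf_Nd (D : T.κ →₀ ℕ) : IsNormFn E (T.Nd D) := by
  classical
  induction D using Finsupp.induction_linear with
  | zero => rw [Nd_zero]; exact isNormFn_one
  | add f g hf hg =>
    have : T.Nd (f + g) = fun x => T.Nd f x * T.Nd g x := by funext x; exact T.Nd_add f g x
    rw [this]; exact hf.mul hg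
  | single C m =>
    have : T.Nd (Finsupp.single C m) = fun x => T.N C x ^ m := by
      funext x; exact T.Nd_single C m x
    rw [this]; exact (T.nf C).pow m

theorem Nd_eq_zero_iff (D : T.κ →₀ ℕ) (x : M) : T.Nd D x = 0 ↔ ∃ C ∈ D.support, T.N C x = 0 := by
  rw [Nd, Finsupp.prod, Finset.prod_eq_zero_iff]
  constructor
  · rintro ⟨C, hC, h⟩
    exact ⟨C, hC, pow_eq_zero_iff (Finsupp.mem_support_iff.1 hC) |>.1 h⟩
  · rintro ⟨C, hC, h⟩
    exact ⟨C, hC, by rw [h]; exact zero_pow (Finsupp.mem_support_iff.1 hC)⟩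

theorem cl_one : T.cl (fun _ => 1) = 0 := by
  have := T.cl_exp (fun _ => 0) contMDiff_const
  simpa using this

/-- smooth positive factors do not change the class -/
theorem cl_exp_mul {N : M → ℝ} (hN : IsNormFn E N) {ψ : M → ℝ}
    (hψ : ContMDiff 𝓘(ℝ, E) 𝓘(ℝ) ∞ ψ) : T.cl (fun x => Real.exp (ψ x) * N x) = T.cl N := by
  have h1 : IsNormFn E (fun x => Real.exp (ψ x)) := by
    have := isNormFn_exp (E := E) (φ := fun x => -ψ x) hψ.neg
    simpa using this
  rw [T.cl_mul _ _ h1 hN, T.cl_exp ψ hψ, zero_add]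

theorem cl_Nd (D : T.κ →₀ ℕ) : T.cl (T.Nd D) = Finsupp.linearCombination ℕ (fun C => T.cl (T.N C)) D := by
  classical
  have hpow : ∀ (C : T.κ) (m : ℕ), T.cl (fun x => T.N C x ^ m) = m • T.cl (T.N C) := by
    intro C m
    induction m with
    | zero => simpa using T.cl_one
    | succ m ih =>
      have : (fun x => T.N C x ^ (m + 1)) = fun x => T.N C x ^ m * T.N C x := by
        funext x; exact pow_succ _ _
      rw [this, T.cl_mul _ _ ((T.nf C).pow m) (T.nf C), ih, succ_nsmul]
  induction D using Finsupp.induction_linear with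
  | zero => simpa using T.cl_one
  | add f g hf hg =>
    have : T.Nd (f + g) = fun x => T.Nd f x * T.Nd g x := by funext x; exact T.Nd_add f g x
    rw [this, T.cl_mul _ _ (T.nf_Nd f) (T.nf_Nd g), hf, hg, map_add]
  | single C m =>
    have : T.Nd (Finsupp.single C m) = fun x => T.N C x ^ m := by
      funext x; exact T.Nd_single C m x
    rw [this, hpow, Finsupp.linearCombination_single]

/-- the curves of `T` as an instance of helper270's structure -/
@[simps] def toCurves : P290.H270.Curves.{u, u} T.H where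
  B := T.B
  symm := T.symm
  κ := T.κ
  cl C := T.cl (T.N C)
  nonneg C C' h := T.int_nonneg _ _ (T.nf C) (T.nf C') (T.finite C C' h)

theorem cls_eq (D : T.κ →₀ ℕ) : T.toCurves.cls D = T.cl (T.Nd D) := (T.cl_Nd D).symm

/-- the divisor of a norm function -/
noncomputable def dv (N : M → ℝ) : T.κ →₀ ℕ :=
  open Classical in if h : IsNormFn E N then (T.factor N h).choose else 0

theorem dv_spec {N : M → ℝ} (h : IsNormFn E N) : ∃ ψ : M → ℝ, ContMDiff 𝓘(ℝ, E) 𝓘(ℝ) ∞ ψ ∧
    ∀ x, N x = Real.exp (ψ x) * T.Nd (T.dv N) x := by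
  classical
  rw [dv, dif_pos h]
  exact (T.factor N h).choose_spec

theorem cl_dv {N : M → ℝ} (h : IsNormFn E N) : T.toCurves.cls (T.dv N) = T.cl N := by
  obtain ⟨ψ, hψ, hN⟩ := T.dv_spec h
  have : N = fun x => Real.exp (ψ x) * T.Nd (T.dv N) x := funext hN
  rw [T.cls_eq]
  conv_rhs => rw [this]
  exact (T.cl_exp_mul (T.nf_Nd _) hψ).symm

theorem zero_iff {N : M → ℝ} (h : IsNormFn E N) (x : M) :
    N x = 0 ↔ ∃ C ∈ (T.dv N).support, T.N C x = 0 := by
  obtain ⟨ψ, -, hN⟩ := T.dv_spec h
  rw [hN x, mul_eq_zero, T.Nd_eq_zero_iff]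
  simp [(Real.exp_pos _).ne']

/-- two norm functions without common curve have finitely many common zeros -/
theorem finite_common {N N' : M → ℝ} (h : IsNormFn E N) (h' : IsNormFn E N')
    (hd : ∀ C ∈ (T.dv N).support, C ∉ (T.dv N').support) :
    ({x | N x = 0} ∩ {x | N' x = 0}).Finite := by
  have : ({x | N x = 0} ∩ {x | N' x = 0}) ⊆ ⋃ C ∈ (T.dv N).support, ⋃ C' ∈ (T.dv N').support,
      ({x | T.N C x = 0} ∩ {x | T.N C' x = 0}) := by
    rintro x ⟨h1, h2⟩
    obtain ⟨C, hC, hx⟩ := (T.zero_iff h x).1 h1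
    obtain ⟨C', hC', hx'⟩ := (T.zero_iff h' x).1 h2
    simp only [mem_iUnion]
    exact ⟨C, hC, C', hC', hx, hx'⟩
  refine Set.Finite.subset ?_ this
  refine Set.Finite.biUnion (Finset.finite_toSet _) fun C hC => ?_
  refine Set.Finite.biUnion (Finset.finite_toSet _) fun C' hC' => ?_
  refine T.finite C C' ?_
  rintro rfl
  exact hd C hC hC'

/-- a curve is a component of a norm function iff the norm function vanishes on it -/
theorem mem_dv_iff {N : M → ℝ} (h : IsNormFn E N) (C : T.κ) :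
    C ∈ (T.dv N).support ↔ ∀ x, T.N C x = 0 → N x = 0 := by
  constructor
  · intro hC x hx
    exact (T.zero_iff h x).2 ⟨C, hC, hx⟩
  · intro hC
    by_contra hcon
    refine T.infinite C ?_
    have : {x | T.N C x = 0} ⊆ ⋃ C' ∈ (T.dv N).support, ({x | T.N C x = 0} ∩ {x | T.N C' x = 0}) := by
      intro x hx
      obtain ⟨C', hC', hx'⟩ := (T.zero_iff h x).1 (hC x hx)
      simp only [mem_iUnion]
      exact ⟨C', hC', hx, hx'⟩
    refine Set.Finite.subset ?_ this
    refine Set.Finite.biUnion (Finset.finite_toSet _) fun C' hC' => ?_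
    refine T.finite C C' ?_
    rintro rfl
    exact hcon hC'

/-- distinct curves with intersection number zero are disjoint -/
theorem disjoint_of_zero {C C' : T.κ} (h : C ≠ C')
    (h0 : T.B (T.cl (T.N C)) (T.cl (T.N C')) = 0) (x : M) (hx : T.N C x = 0) : T.N C' x ≠ 0 := by
  intro hx'
  have := T.int_one _ _ (T.nf C) (T.nf C') (T.finite C C' h) x hx hx'
  omega

end DivTh

end Vale.Agent.P290.H342
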