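import Vale.Agent.P267.H332.Pair.Pair
import Vale.Agent.P267.H821.Plh

/-!
# P290, LATDEF (helper342): an effective divisor with exact curvature is zero

* `ne_zero_of_flat` : a norm function with curvature zero has no zeros (maximum principle);
* `exists_potential` : an exact curvature is `∂∂̄ψ` (`H^{0,1} = 0`);
* `ne_zero_of_exact` : a norm function whose curvature is exact has no zeros.
-/

set_option linter.unusedSectionVars false

open scoped Manifold ContDiff ComplexConjugate Topology
open Set Filter

noncomputable section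

namespace Vale.Agent.P290.H342

open Vale.Agent.P267.FL Vale.Agent.P267.H332 Vale.Agent.P267.H757

variable {Y : Type*} [TopologicalSpace Y] [ChartedSpace C2 Y] [IsManifold 𝓘(ℂ, C2) ω Y]

/-- A norm function with curvature zero has no zeros. -/
theorem ne_zero_of_flat [CompactSpace Y] [PreconnectedSpace Y] {N : Y → ℝ}
    (hN : IsNormFn C2 N) (h0 : ∀ x, curvN N x = 0) : ∀ x, N x ≠ 0 := by
  rcases isEmpty_or_nonempty Y with hE | hE
  · exact fun x => hE.elim x
  obtain ⟨x0, -, hmax⟩ := isCompact_univ.exists_isMaxOn (univ_nonempty (α := Y))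
    hN.continuous.continuousOn
  have hmax' : ∀ x, N x ≤ N x0 := fun x => hmax (mem_univ x)
  have hpos : 0 < N x0 := by
    obtain ⟨y, hy⟩ := hN.dense_ne_zero.nonempty
    exact lt_of_lt_of_le (lt_of_le_of_ne (hN.nonneg y) (Ne.symm hy)) (hmax' y)
  have hclosed : IsClosed {x | N x = N x0} := isClosed_eq hN.continuous continuous_const
  have hopen : IsOpen {x | N x = N x0} := by
    rw [isOpen_iff_mem_nhds]
    intro x hx
    obtain ⟨U, g, φ, hxU, hr⟩ := hN x
    set c := chartAt C2 x with hc
    have hcA : c ∈ atlas C2 Y := chart_mem_atlas C2 x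
    have hxc : x ∈ c.source := mem_chart_source C2 x
    have hO : IsOpen (c.target ∩ c.symm ⁻¹' U) := lr_isOpen hr c
    have hcx : c x ∈ c.target ∩ c.symm ⁻¹' U :=
      ⟨c.map_source hxc, by rw [mem_preimage, c.left_inv hxc]; exact hxU⟩
    obtain ⟨r, hr0, hball⟩ := Metric.isOpen_iff.1 hO _ hcx
    obtain ⟨H, hH, hφ⟩ := Vale.Agent.P267.H821.plh (ψ := fun z => φ (c.symm z))
      (convex_ball (c x) r) Metric.isOpen_ball ⟨c x, Metric.mem_ball_self hr0⟩
      ((contDiffOn_chart hcA hr.smooth).mono hball) (by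
        intro z hz
        rw [← loc11_curvN hr hcA (hball hz).1 (hball hz).2]
        ext i j
        simp [loc11, h0])
    have hg : DifferentiableOn ℂ (fun z => g (c.symm z)) (Metric.ball (c x) r) :=
      (differentiableOn_chart hcA hr.hol).mono hball
    set f : C2 → ℂ := fun z => g (c.symm z) * Complex.exp (-H z) with hf
    have hfd : DifferentiableOn ℂ f (Metric.ball (c x) r) :=
      hg.mul hH.neg.cexp
    have hfN : ∀ z ∈ Metric.ball (c x) r, ‖f z‖ ^ 2 = N (c.symm z) := by
      intro z hz
      rw [hr.eq _ (hball hz).2, hf, norm_mul, mul_pow, Complex.norm_exp, ← Real.exp_nat_mul,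
        hφ z hz]
      congr 2
      simp only [Complex.neg_re]
      push_cast
      ring
    have hloc : IsLocalMax (norm ∘ f) (c x) := by
      filter_upwards [Metric.ball_mem_nhds (c x) hr0] with z hz
      have h1 := hfN z hz
      have h2 := hfN (c x) (Metric.mem_ball_self hr0)
      rw [c.left_inv hxc, show N x = N x0 from hx] at h2
      have h3 := hmax' (c.symm z)
      simp only [Function.comp_apply]
      refine le_of_sq_le_sq ?_ (norm_nonneg _)
      rw [h1, h2]
      exact h3
    have hev := Complex.norm_eventually_eq_of_isLocalMax (f := f) (c := c x) (by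
      filter_upwards [Metric.ball_mem_nhds (c x) hr0] with z hz
      exact hfd.differentiableAt (Metric.isOpen_ball.mem_nhds hz)) hloc
    have hca : Tendsto c (𝓝 x) (𝓝 (c x)) := c.continuousAt hxc
    filter_upwards [hca.eventually hev, hca.eventually (Metric.ball_mem_nhds (c x) hr0),
      c.open_source.mem_nhds hxc] with y hy hyb hyc
    have h1 := hfN _ hyb
    have h2 := hfN (c x) (Metric.mem_ball_self hr0)
    rw [c.left_inv hyc] at h1
    rw [c.left_inv hxc] at h2
    show N y = N x0
    rw [← h1, hy, h2]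
    exact hx
  have huniv : {x | N x = N x0} = univ := by
    rcases isClopen_iff.1 ⟨hclosed, hopen⟩ with h | h
    · exact absurd (show x0 ∈ {x | N x = N x0} from rfl) (by rw [h]; exact notMem_empty x0)
    · exact h
  intro x
  have h1 : x ∈ {x | N x = N x0} := by rw [huniv]; trivial
  rw [show N x = N x0 from h1]
  exact hpos.ne'

/-- `∂̄`-closed `(0,1)`-forms are exact. -/
def DbarSolve (Y : Type*) [TopologicalSpace Y] [ChartedSpace C2 Y] : Prop :=
  ∀ a : Y → Fin 2 → ℂ, Reg1 ∞ 0 a → (∀ x, dbar1 0 a x = 0) →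
    ∃ u : Y → ℂ, Reg0 ∞ 0 u ∧ ∀ x i, dbar0 0 u x i = a x i

theorem loc1_conj (e : Ch Y) (c : Y → Fin 2 → ℂ) (z : C2) (i : Fin 2) :
    loc1 0 e (fun y i => conj (c y i)) z i = conj (loc10 e c z i) := by
  simp only [loc10, loc1, zpow_zero, smul_eq_mul, map_sum, map_mul, one_mul]

/-- the conjugate of a `(1,0)`-form -/
theorem reg1_conj {c : Y → Fin 2 → ℂ} (hc : Reg10 ∞ c) : Reg1 ∞ 0 fun y i => conj (c y i) := by
  intro e he
  have h := hc e he
  rw [contDiffOn_pi] at h ⊢
  intro i
  have h1 : (fun z => loc1 0 e (fun y i => conj (c y i)) z i) = fun z => conj (loc10 e c z i) :=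
    funext fun z => loc1_conj e c z i
  rw [h1]
  exact Complex.conjCLE.contDiff.comp_contDiffOn (h i)

theorem loc10_diff {c : Y → Fin 2 → ℂ} (hc : Reg10 ∞ c) {e : Ch Y} (he : e ∈ atlas C2 Y) {z : C2}
    (hz : z ∈ e.target) (i : Fin 2) : DifferentiableAt ℝ (fun z => loc10 e c z i) z := by
  have h := (contDiffOn_pi.1 (hc e he) i).contDiffAt (e.open_target.mem_nhds hz)
  exact h.differentiableAt (by simp)

theorem dbar1_conj {c : Y → Fin 2 → ℂ} (hc : Reg10 ∞ c) (x : Y) :
    dbar1 0 (fun y i => conj (c y i)) x = conj (del10 c x) := by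
  have h1 : ∀ i, (fun z => loc1 0 (chartAt C2 x) (fun y i => conj (c y i)) z i) =
      fun z => conj (loc10 (chartAt C2 x) c z i) := fun i => funext fun z => loc1_conj _ c z i
  have h2 := fun i => loc10_diff hc (chart_mem_atlas C2 x) (mem_chart_target C2 x) i
  rw [dbar1, del10, h1, h1, dzb_conj (h2 1), dzb_conj (h2 0), map_sub]

/-- an exact curvature is `∂∂̄ψ` -/
theorem exists_potential (hS : DbarSolve Y) {N : Y → ℝ} (hN : IsNormFn C2 N) {A : OneF Y}
    (hA : A.Smooth) (h : A.d = cF N) : ∃ ψ : Y → ℝ, ContMDiff 𝓘(ℝ, C2) 𝓘(ℝ) ∞ ψ ∧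
      ∀ x, curvN N x = ddz (fun z => (ψ ((chartAt C2 x).symm z) : ℂ)) (chartAt C2 x x) := by
  have e20 : ∀ x, del10 A.f10 x = 0 := fun x => congrFun (congrArg TwoF.f20 h) x
  have e02 : ∀ x, dbar1 0 A.f01 x = 0 := fun x => congrFun (congrArg TwoF.f02 h) x
  have e11 : ∀ x, del1 A.f01 x + dbar10 A.f10 x = curvN N x :=
    fun x => congrFun (congrArg TwoF.f11 h) x
  obtain ⟨u, hu, hu1⟩ := hS A.f01 hA.s01 e02
  obtain ⟨w, hw, hw1⟩ := hS (fun y i => conj (A.f10 y i)) (reg1_conj hA.s10) (fun x => by
    rw [dbar1_conj hA.s10, e20, map_zero])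
  have hur : ∀ {e : Ch Y}, e ∈ atlas C2 Y → ∀ {z : C2}, z ∈ e.target →
      ContDiffAt ℝ ∞ (fun z => u (e.symm z)) z := fun {_} he {_} hz => by
    have := hu.contDiffAt he hz
    rwa [loc0_zero'] at this
  have hwr : ∀ {e : Ch Y}, e ∈ atlas C2 Y → ∀ {z : C2}, z ∈ e.target →
      ContDiffAt ℝ ∞ (fun z => w (e.symm z)) z := fun {_} he {_} hz => by
    have := hw.contDiffAt he hz
    rwa [loc0_zero'] at this
  refine ⟨fun y => (u y - conj (w y)).re, ?_, ?_⟩
  · have hreg : Reg0 ∞ 0 fun y => (((u y - conj (w y)).re : ℝ) : ℂ) := by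
      intro e he z hz
      rw [loc0_zero']
      refine ContDiffAt.contDiffWithinAt ?_
      have h1 : ContDiffAt ℝ ∞ (fun z => u (e.symm z) - conj (w (e.symm z))) z :=
        (hur he hz).sub (Complex.conjCLE.contDiff.contDiffAt.comp z (hwr he hz))
      exact Complex.ofRealCLM.contDiff.contDiffAt.comp z
        (Complex.reCLM.contDiff.contDiffAt.comp z h1)
    intro x
    have := isManifold_real (E := C2) (M := Y) ∞
    rw [contMDiffAt_iff]
    have h1 := hreg _ (chart_mem_atlas C2 x) _ (mem_chart_target C2 x)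
    rw [loc0_zero'] at h1
    have h2 : ContDiffAt ℝ ∞ (fun z => (u ((chartAt C2 x).symm z) -
        conj (w ((chartAt C2 x).symm z))).re) (chartAt C2 x x) := by
      have h3 := Complex.reCLM.contDiff.contDiffAt.comp _ (h1.contDiffAt
        ((chartAt C2 x).open_target.mem_nhds (mem_chart_target C2 x)))
      exact h3.congr_of_eventuallyEq (Eventually.of_forall fun z => by simp)
    refine ⟨?_, ?_⟩
    · have h4 : ContinuousAt ((fun z => (u ((chartAt C2 x).symm z) -
          conj (w ((chartAt C2 x).symm z))).re) ∘ (chartAt C2 x)) x :=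
        ContinuousAt.comp (g := fun z => (u ((chartAt C2 x).symm z) -
          conj (w ((chartAt C2 x).symm z))).re) h2.continuousAt
          ((chartAt C2 x).continuousAt (mem_chart_source C2 x))
      refine h4.congr ?_
      filter_upwards [(chartAt C2 x).open_source.mem_nhds (mem_chart_source C2 x)] with y hy
      simp only [Function.comp_apply, (chartAt C2 x).left_inv hy]
    · simp only [mfld_simps]
      rw [contDiffWithinAt_univ]
      exact h2
  · intro x
    set c := chartAt C2 x with hcd
    have hcA : c ∈ atlas C2 Y := chart_mem_atlas C2 x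
    have hz : c x ∈ c.target := mem_chart_target C2 x
    set U : C2 → ℂ := fun z => u (c.symm z) with hU
    set W : C2 → ℂ := fun z => w (c.symm z) with hW
    have hU2 : ContDiffAt ℝ 2 U (c x) := (hur hcA hz).of_le (WithTop.coe_le_coe.2 le_top)
    have hW2 : ContDiffAt ℝ 2 W (c x) := (hwr hcA hz).of_le (WithTop.coe_le_coe.2 le_top)
    have hWd : ∀ {z : C2}, z ∈ c.target → DifferentiableAt ℝ W z := fun hz =>
      (hwr hcA hz).differentiableAt (by simp)
    -- the curvature is `∂∂̄ (u - w̄)`
    have hF : ∀ i j, curvN N x i j = dz i (dzb j U) (c x) - conj (dz j (dzb i W) (c x)) := by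
      intro i j
      rw [← e11 x, Matrix.add_apply]
      have t1 : del1 A.f01 x i j = dz i (dzb j U) (c x) := by
        simp only [del1, Matrix.of_apply]
        refine dz_congr ?_ i
        filter_upwards [c.open_target.mem_nhds hz] with y hy
        have h1 := loc1_dbar0 (κ := 0) hcA hy (s := u) (by
          rw [loc0_zero']; exact (hur hcA hy).differentiableAt (by simp)) j
        rw [loc0_zero'] at h1
        rw [← h1]
        congr 1
        funext p
        exact (funext fun i => (hu1 p i).symm)
      have t2 : dbar10 A.f10 x i j = -conj (dz j (dzb i W) (c x)) := by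
        simp only [dbar10, Matrix.of_apply]
        congr 1
        have h1 : (fun z => loc10 c A.f10 z i) =ᶠ[𝓝 (c x)] fun z => conj (dzb i W z) := by
          filter_upwards [c.open_target.mem_nhds hz] with y hy
          have h2 := loc1_dbar0 (κ := 0) hcA hy (s := w) (by
            rw [loc0_zero']; exact hWd hy) i
          rw [loc0_zero'] at h2
          have h3 : dbar0 0 w = fun y i => conj (A.f10 y i) := by
            funext p i; exact hw1 p i
          rw [h3, loc1_conj] at h2
          have h4 := congrArg (starRingEnd ℂ) h2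
          rw [Complex.conj_conj] at h4
          exact h4
        rw [dzb_congr h1, dzb_conj (differentiableAt_dzb hW2 i)]
      rw [t1, t2, sub_eq_add_neg]
    ext i j
    have hH := cF_imag hN x j i
    have h1 : (fun z => (((u (c.symm z) - conj (w (c.symm z))).re : ℝ) : ℂ)) =
        fun z => (1 / 2 : ℂ) * ((U z - conj (W z)) + (conj (U z) - W z)) := by
      funext z
      rw [Complex.re_eq_add_conj]
      simp only [hU, hW, map_sub, Complex.conj_conj]
      ring
    have hUc : ContDiffAt ℝ 2 (fun z => conj (U z)) (c x) :=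
      Complex.conjCLE.contDiff.contDiffAt.comp _ hU2
    have hWc : ContDiffAt ℝ 2 (fun z => conj (W z)) (c x) :=
      Complex.conjCLE.contDiff.contDiffAt.comp _ hW2
    have hdd : ∀ {V : C2 → ℂ}, ContDiffAt ℝ 2 V (c x) → ∀ i j,
        dz i (dzb j (fun z => conj (V z))) (c x) = conj (dz j (dzb i V) (c x)) := by
      intro V hV i j
      have hVev : (fun z => dzb j (fun z => conj (V z)) z) =ᶠ[𝓝 (c x)] fun z => conj (dz j V z) := by
        filter_upwards [hV.eventually (by simp)] with z hz
        exact dzb_conj (hz.differentiableAt (by norm_num)) j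
      rw [dz_congr hVev, dz_conj (differentiableAt_dz hV j), ← dz_dzb_comm hV j i]
    have h2 : ddz (fun z => (1 / 2 : ℂ) * ((U z - conj (W z)) + (conj (U z) - W z))) (c x) =
        (1 / 2 : ℂ) • ((ddz U (c x) - ddz (fun z => conj (W z)) (c x)) +
          (ddz (fun z => conj (U z)) (c x) - ddz W (c x))) := by
      rw [ddz_const_mul _ ((hU2.sub hWc).add (hUc.sub hW2)), ddz_add (hU2.sub hWc) (hUc.sub hW2),
        ddz_sub hU2 hWc, ddz_sub hUc hW2]
    rw [h1, h2]
    simp only [Matrix.smul_apply, Matrix.add_apply, Matrix.sub_apply, ddz_apply, smul_eq_mul,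
      hdd hU2, hdd hW2]
    have h3 := hF i j
    have h4 := hF j i
    rw [h4] at hH
    simp only [map_sub, Complex.conj_conj] at hH
    linear_combination (1 / 2 : ℂ) * h3 + (1 / 2 : ℂ) * hH

/-- A norm function whose curvature is exact has no zeros. -/
theorem ne_zero_of_exact [CompactSpace Y] [PreconnectedSpace Y] (hS : DbarSolve Y) {N : Y → ℝ}
    (hN : IsNormFn C2 N) {A : OneF Y} (hA : A.Smooth) (h : A.d = cF N) : ∀ x, N x ≠ 0 := by
  obtain ⟨ψ, hψ, h1⟩ := exists_potential hS hN hA h
  have hE : IsNormFn C2 (fun x => Real.exp (ψ x)) := by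
    have := isNormFn_exp (E := C2) (φ := fun x => -ψ x) hψ.neg
    simpa using this
  have h2 := ne_zero_of_flat (hN.mul hE) (by
    intro x
    rw [curvN_mul hN hE x, curvN_of_pos hE (Real.exp_pos _), h1 x]
    simp only [Real.log_exp, add_neg_cancel])
  intro x hx
  exact h2 x (by rw [hx, zero_mul])

end Vale.Agent.P290.H342
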