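import Vale.Agent.P290.H342.DivTh

/-!
# P290, GEO-PENCIL (helper342): pencils, base points, noncritical points
-/

open Set Filter Topology
open scoped Manifold ContDiff

namespace Vale.Agent.P290.H342

open Vale.Agent.P267.H757

universe u

variable {E : Type*} [NormedAddCommGroup E] [NormedSpace ℂ E]
variable {M : Type u} [TopologicalSpace M] [ChartedSpace E M]

/-- `(U, g0, g1, φ)` is a local representation of the family `N a b = ‖a s0 + b s1‖²`. -/
structure PLoc (E : Type*) [NormedAddCommGroup E] [NormedSpace ℂ E] {M : Type u}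
    [TopologicalSpace M] [ChartedSpace E M] (N : ℂ → ℂ → M → ℝ) (U : Set M) (g0 g1 : M → ℂ)
    (φ : M → ℝ) : Prop where
  isOpen : IsOpen U
  hol0 : MDifferentiableOn 𝓘(ℂ, E) 𝓘(ℂ) g0 U
  hol1 : MDifferentiableOn 𝓘(ℂ, E) 𝓘(ℂ) g1 U
  smooth : ContMDiffOn 𝓘(ℝ, E) 𝓘(ℝ) ∞ φ U
  eq : ∀ a b, ∀ x ∈ U, N a b x = ‖a * g0 x + b * g1 x‖ ^ 2 * Real.exp (-φ x)

/-- A pencil of class `v`: the norm functions `N a b` of the sections `a s0 + b s1`. -/
structure Pen (T : DivTh E M) (v : T.H) where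
  N : ℂ → ℂ → M → ℝ
  loc : ∀ p, ∃ (U : Set M) (g0 g1 : M → ℂ) (φ : M → ℝ), p ∈ U ∧ PLoc E N U g0 g1 φ
  nf : ∀ a b, (a ≠ 0 ∨ b ≠ 0) → IsNormFn E (N a b)
  cl : ∀ a b, (a ≠ 0 ∨ b ≠ 0) → T.cl (N a b) = v

namespace Pen

variable {T : DivTh E M} {v : T.H} (P : Pen T v)

/-- no base points -/
def Bpf : Prop := ∀ x, P.N 1 0 x = 0 → P.N 0 1 x ≠ 0

variable {P}

theorem Bpf.ne {U : Set M} {g0 g1 : M → ℂ} {φ : M → ℝ} (h : P.Bpf) (hl : PLoc E P.N U g0 g1 φ)
    {x : M} (hx : x ∈ U) : g0 x ≠ 0 ∨ g1 x ≠ 0 := by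
  by_contra hcon
  push Not at hcon
  refine h x ?_ ?_
  · rw [hl.eq 1 0 x hx, hcon.1, hcon.2]; simp
  · rw [hl.eq 0 1 x hx, hcon.1, hcon.2]; simp

/-- different members of a base point free pencil are disjoint -/
theorem Bpf.disj (h : P.Bpf) {a b a' b' : ℂ} (hdet : a * b' - b * a' ≠ 0) (x : M)
    (hx : P.N a b x = 0) : P.N a' b' x ≠ 0 := by
  intro hx'
  obtain ⟨U, g0, g1, φ, hxU, hl⟩ := P.loc x
  rw [hl.eq a b x hxU] at hx
  rw [hl.eq a' b' x hxU] at hx'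
  have e1 : a * g0 x + b * g1 x = 0 := by
    rcases mul_eq_zero.1 hx with h1 | h1
    · exact norm_eq_zero.1 (pow_eq_zero_iff two_ne_zero |>.1 h1)
    · exact absurd h1 (Real.exp_pos _).ne'
  have e2 : a' * g0 x + b' * g1 x = 0 := by
    rcases mul_eq_zero.1 hx' with h1 | h1
    · exact norm_eq_zero.1 (pow_eq_zero_iff two_ne_zero |>.1 h1)
    · exact absurd h1 (Real.exp_pos _).ne'
  have h0 : g0 x = 0 := by
    have : (a * b' - b * a') * g0 x = 0 := by linear_combination b' * e1 - b * e2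
    exact (mul_eq_zero.1 this).resolve_left hdet
  have h1 : g1 x = 0 := by
    have : (a * b' - b * a') * g1 x = 0 := by linear_combination a * e2 - a' * e1
    exact (mul_eq_zero.1 this).resolve_left hdet
  rcases h.ne hl hxU with h2 | h2
  · exact h2 h0
  · exact h2 h1

/-- a curve contained in a member of a base point free pencil has degree zero -/
theorem Bpf.deg_zero (h : P.Bpf) {a b : ℂ} (hab : a ≠ 0 ∨ b ≠ 0) {C : T.κ}
    (hC : C ∈ (T.dv (P.N a b)).support) : T.B v (T.cl (T.N C)) = 0 := by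
  -- another member
  obtain ⟨a', b', hab', hdet⟩ : ∃ a' b' : ℂ, (a' ≠ 0 ∨ b' ≠ 0) ∧ a * b' - b * a' ≠ 0 := by
    rcases hab with ha | hb
    · exact ⟨0, 1, Or.inr one_ne_zero, by simpa using ha⟩
    · exact ⟨1, 0, Or.inl one_ne_zero, by simpa using hb⟩
  rw [← P.cl a' b' hab']
  refine T.int_zero _ _ (P.nf a' b' hab') (T.nf C) ?_
  intro x hx hxC
  exact h.disj hdet x ((T.mem_dv_iff (P.nf a b hab) C).1 hC x hxC) hx

/-- the member through a point -/
theorem Bpf.exists_member (h : P.Bpf) {U : Set M} {g0 g1 : M → ℂ} {φ : M → ℝ}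
    (hl : PLoc E P.N U g0 g1 φ) {q : M} (hq : q ∈ U) :
    (g1 q ≠ 0 ∨ -g0 q ≠ 0) ∧ P.N (g1 q) (-g0 q) q = 0 ∧
      LocRep E (P.N (g1 q) (-g0 q)) U (fun x => g1 q * g0 x + -g0 q * g1 x) φ := by
  have h1 : g1 q ≠ 0 ∨ -g0 q ≠ 0 := by
    rcases h.ne hl hq with h | h
    · exact Or.inr (neg_ne_zero.2 h)
    · exact Or.inl h
  refine ⟨h1, ?_, ?_⟩
  · rw [hl.eq _ _ q hq]
    have : g1 q * g0 q + -g0 q * g1 q = 0 := by ring
    rw [this]; simp
  · refine ⟨hl.isOpen, ?_, ?_, hl.smooth, fun x hx => hl.eq _ _ x hx⟩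
    · exact (hl.hol0.const_smul (g1 q)).add (hl.hol1.const_smul (-g0 q))
    · intro V hV hVU hne
      by_contra hcon
      push Not at hcon
      have h2 := (P.nf _ _ h1).interior_zero
      have h3 : V ⊆ interior {x | P.N (g1 q) (-g0 q) x = 0} := by
        refine interior_maximal ?_ hV
        intro x hx
        show P.N (g1 q) (-g0 q) x = 0
        rw [hl.eq _ _ x (hVU hx), hcon x hx]; simp
      rw [h2] at h3
      obtain ⟨x, hx⟩ := hne
      exact h3 hx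

/-- **Claim B (i)**: a curve of degree one for the pencil has no critical points. -/
theorem Bpf.noncritical_of_one (h : P.Bpf) {C : T.κ} (hC : T.B v (T.cl (T.N C)) = 1)
    {U : Set M} {g0 g1 : M → ℂ} {φ : M → ℝ} (hl : PLoc E P.N U g0 g1 φ) {q : M} (hq : q ∈ U)
    (hqC : T.N C q = 0) :
    mfderiv 𝓘(ℂ, E) 𝓘(ℂ) (fun x => g1 q * g0 x + -g0 q * g1 x) q ≠ 0 := by
  intro hcr
  obtain ⟨hab, h0, hrep⟩ := h.exists_member hl hq
  have hfin : ({x | P.N (g1 q) (-g0 q) x = 0} ∩ {x | T.N C x = 0}).Finite := by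
    refine T.finite_common (P.nf _ _ hab) (T.nf C) ?_
    intro C' hC' hC2
    have h1 := h.deg_zero hab hC'
    have h2 : C' = C := by
      by_contra hne
      refine T.infinite C' ((T.finite C' C hne).subset ?_)
      intro x hx
      exact ⟨hx, (T.mem_dv_iff (T.nf C) C').1 hC2 x hx⟩
    rw [h2] at h1
    omega
  have := T.int_two _ _ (P.nf _ _ hab) (T.nf C) hfin q
    ⟨U, _, φ, hq, hrep, by ring, hcr⟩ hqC
  rw [P.cl _ _ hab] at this
  omega

/-- a norm function without components of degree zero meets every member in finitely many points -/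
theorem Bpf.finite (h : P.Bpf) {F : M → ℝ} (hF : IsNormFn E F)
    (hFv : ∀ C ∈ (T.dv F).support, T.B v (T.cl (T.N C)) ≠ 0) {a b : ℂ} (hab : a ≠ 0 ∨ b ≠ 0) :
    ({x | P.N a b x = 0} ∩ {x | F x = 0}).Finite := by
  refine T.finite_common (P.nf _ _ hab) hF ?_
  intro C hC hC2
  exact hFv C hC2 (h.deg_zero hab hC)

/-- **Claim B (ii)**: a critical point of a divisor `F` with `v.F ≤ 3`, no component of which is
contracted by the pencil, is not critical for the pencil. -/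
theorem Bpf.noncritical_of_le_three (h : P.Bpf) {F : M → ℝ} (hF : IsNormFn E F)
    (hFv : ∀ C ∈ (T.dv F).support, T.B v (T.cl (T.N C)) ≠ 0) (h3 : T.B v (T.cl F) ≤ 3)
    {U : Set M} {g0 g1 : M → ℂ} {φ : M → ℝ} (hl : PLoc E P.N U g0 g1 φ) {q : M} (hq : q ∈ U)
    (hqF : Sing E F q) :
    mfderiv 𝓘(ℂ, E) 𝓘(ℂ) (fun x => g1 q * g0 x + -g0 q * g1 x) q ≠ 0 := by
  intro hcr
  obtain ⟨hab, h0, hrep⟩ := h.exists_member hl hq
  have := T.int_four _ _ (P.nf _ _ hab) hF (h.finite hF hFv hab) q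
    ⟨U, _, φ, hq, hrep, by ring, hcr⟩ hqF
  rw [P.cl _ _ hab] at this
  omega

/-- `F.v = 1` and `q ∈ F`: `q` is not critical for the pencil (`F` any divisor). -/
theorem Bpf.noncritical_of_le_one (h : P.Bpf) {F : M → ℝ} (hF : IsNormFn E F)
    (hFv : ∀ C ∈ (T.dv F).support, T.B v (T.cl (T.N C)) ≠ 0) (h1 : T.B v (T.cl F) ≤ 1)
    {U : Set M} {g0 g1 : M → ℂ} {φ : M → ℝ} (hl : PLoc E P.N U g0 g1 φ) {q : M} (hq : q ∈ U)
    (hqF : F q = 0) :
    mfderiv 𝓘(ℂ, E) 𝓘(ℂ) (fun x => g1 q * g0 x + -g0 q * g1 x) q ≠ 0 := by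
  intro hcr
  obtain ⟨hab, h0, hrep⟩ := h.exists_member hl hq
  have := T.int_two _ _ (P.nf _ _ hab) hF (h.finite hF hFv hab) q
    ⟨U, _, φ, hq, hrep, by ring, hcr⟩ hqF
  rw [P.cl _ _ hab] at this
  omega

variable (P)

/-- **No base points** (Claim A, with helper270's pencil lemma). -/
theorem bpf_of_pencil (f : P290.H270.Fib.{u, u, u} T.toCurves) [Nonempty f.S]
    [IsAddTorsionFree T.H] (hc : f.Conn) {c0 : T.H} (hc0 : T.B c0 f.e = 1) {m : ℤ} (hm : 2 ≤ m)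
    (hindex : ∀ C, m ∣ T.B f.e (T.cl (T.N C)))
    (hself : ∀ C, -2 ≤ T.B (T.cl (T.N C)) (T.cl (T.N C)))
    (hvv : T.B v v = 0) (hve : T.B v f.e = m)
    (hvv' : ∀ C, T.B f.e (T.cl (T.N C)) = 0 → 0 ≤ T.B v (T.cl (T.N C)))
    (hne : T.dv (P.N 1 0) ≠ T.dv (P.N 0 1)) : P.Bpf := by
  have n10 := P.nf 1 0 (Or.inl one_ne_zero)
  have n01 := P.nf 0 1 (Or.inr one_ne_zero)
  have key := f.pencil hc hc0 hm hindex hself hvv hve hvv' hne
    (by rw [T.cl_dv n10]; exact P.cl 1 0 (Or.inl one_ne_zero))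
    (by rw [T.cl_dv n01]; exact P.cl 0 1 (Or.inr one_ne_zero))
  intro x hx hx'
  obtain ⟨C, hC, h1⟩ := (T.zero_iff n10 x).1 hx
  obtain ⟨C', hC', h2⟩ := (T.zero_iff n01 x).1 hx'
  obtain ⟨h3, h4⟩ := key C hC C' hC'
  exact T.disjoint_of_zero h3 h4 x h1 h2

/-- general form: two members without common curve and `v² = 0` -/
theorem bpf_of_sq (hvv : T.B v v = 0)
    (hd : ∀ C ∈ (T.dv (P.N 1 0)).support, C ∉ (T.dv (P.N 0 1)).support) : P.Bpf := by
  have n10 := P.nf 1 0 (Or.inl one_ne_zero)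
  have n01 := P.nf 0 1 (Or.inr one_ne_zero)
  intro x hx hx'
  have := T.int_one _ _ n10 n01 (T.finite_common n10 n01 hd) x hx hx'
  rw [P.cl 1 0 (Or.inl one_ne_zero), P.cl 0 1 (Or.inr one_ne_zero)] at this
  omega

end Pen

end Vale.Agent.P290.H342
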